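import Vale.Agent.Lib.P227.Prod
import Vale.Agent.Lib.P227.Block
import Vale.Agent.Lib.P227.Linear

/-!
P227: the logarithmic Brunn-Minkowski inequality for a body and its block dilations, and two closure
properties (products, linear images) of the set of pairs for which the inequality holds.
-/

namespace Vale.Agent.Results.P227.BlockDilations

open Vale.Agent.Lib.P227

theorem result :
    (∀ (n m : ℕ) (A : (Fin n → ℝ) ≃ₗ[ℝ] (Fin n → ℝ)) (b : Fin n → Fin m) (s : Fin m → ℝ),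
      (∀ c, 0 < s c) → ∀ K : Set (Fin n → ℝ), IsSymBody K →
      (∀ ε : Fin m → ℝ, (∀ c, ε c = 1 ∨ ε c = -1) → ∀ x ∈ K, dil b ε x ∈ K) →
      ∀ l : ℝ, 0 ≤ l → l ≤ 1 →
        IsSymBody (A '' K) ∧ IsSymBody (A '' (dil b s '' K)) ∧
          LogBM l (A '' K) (A '' (dil b s '' K))) ∧
    (∀ (n m : ℕ) (K₁ L₁ : Set (Fin n → ℝ)) (K₂ L₂ : Set (Fin m → ℝ)),
      IsSymBody K₁ → IsSymBody L₁ → IsSymBody K₂ → IsSymBody L₂ →
      ∀ l : ℝ, 0 ≤ l → l ≤ 1 → LogBM l K₁ L₁ → LogBM l K₂ L₂ →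
        IsSymBody (prodSet K₁ K₂) ∧ IsSymBody (prodSet L₁ L₂) ∧
          LogBM l (prodSet K₁ K₂) (prodSet L₁ L₂)) ∧
    (∀ (n : ℕ) (A : (Fin n → ℝ) ≃ₗ[ℝ] (Fin n → ℝ)) (K L : Set (Fin n → ℝ)),
      IsSymBody K → IsSymBody L → ∀ l : ℝ, 0 ≤ l → l ≤ 1 →
        IsSymBody (A '' K) ∧ IsSymBody (A '' L) ∧ (LogBM l (A '' K) (A '' L) ↔ LogBM l K L)) := by
  refine ⟨?_, ?_, ?_⟩
  · intro n m A b s hs K hK hinv l hl0 hl1
    have hT := isSymBody_dil_image b s hs hK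
    exact ⟨isSymBody_image A hK, isSymBody_image A hT,
      (logBM_image A hK hT hl0 hl1).2 (logBM_dil b s hs hK hinv hl0 hl1)⟩
  · intro n m K₁ L₁ K₂ L₂ hK₁ hL₁ hK₂ hL₂ l hl0 hl1 h₁ h₂
    exact ⟨isSymBody_prodSet hK₁ hK₂, isSymBody_prodSet hL₁ hL₂,
      logBM_prodSet hK₁ hL₁ hK₂ hL₂ hl0 hl1 h₁ h₂⟩
  · intro n A K L hK hL l hl0 hl1
    exact ⟨isSymBody_image A hK, isSymBody_image A hL, logBM_image A hK hL hl0 hl1⟩

end Vale.Agent.Results.P227.BlockDilations
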